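import Vale.Agent.P183.H287.Top

/-!
A subgroup larger than the stabiliser contains an element with a zero in the corner.
-/

set_option autoImplicit false

namespace Vale.Agent.P183.H43

open Matrix Vale.Agent.P183.H552 Vale.Agent.P183.H287

theorem corner : ∀ p q : F16, (p ≠ 0 ∨ q ≠ 0) → N p + N q ≠ 1 → ∃ x y : F16, N x + N y = 1 ∧
    (1 + N p + N q) + x * N p + F16.cj x * N q + y * (p * F16.cj q)
      + F16.cj y * (F16.cj p * q) = 0 := by
  decide +kernel

theorem N_cb (b : Bool) (x : F16) : N (cb b x) = cb b (N x) := by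
  unfold N
  rw [map_mul, cb_cj]

theorem cb_inv (b : Bool) (x : F16) : cb b (cb b x) = x := by
  rw [cb_cb, Bool.xor_self]
  rfl

/-- Row (A). -/
theorem zero_of_not_mem (K : Subgroup U) (hK : QQ ≤ K) (g : U) (hg : g ∈ K) (hq : g ∉ QQ) :
    ∃ g' ∈ K, g'.m 0 0 = 0 := by
  have hrow : g.m 0 0 * F16.cj (g.m 0 0) + g.m 0 1 * F16.cj (g.m 0 1)
      + g.m 0 2 * F16.cj (g.m 0 2) = 1 := by
    have h : (g.m * st g.m) 0 0 = (1 : M3) 0 0 := by rw [g.h]
    rw [Matrix.mul_apply, Fin.sum_univ_three] at h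
    exact h
  by_cases h1 : N (g.m 0 1) + N (g.m 0 2) = 1
  · refine ⟨g, hg, ?_⟩
    have h2 : N (g.m 0 0) = 0 := by
      have h3 : N (g.m 0 0) + (N (g.m 0 1) + N (g.m 0 2)) = 1 := by
        unfold N
        linear_combination hrow
      rw [h1] at h3
      linear_combination h3
    unfold N at h2
    rcases mul_eq_zero.1 h2 with h4 | h4
    · exact h4
    · have h5 := congrArg F16.cj h4
      rw [F16.cj_cj, map_zero] at h5
      exact h5
  · have h2 : g.m 0 1 ≠ 0 ∨ g.m 0 2 ≠ 0 := by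
      by_contra hcon
      rw [not_or, not_not, not_not] at hcon
      obtain ⟨h3, h4⟩ := hcon
      apply hq
      rw [h3, h4, map_zero, mul_zero, add_zero, add_zero] at hrow
      have hcol0 : (g.m * st g.m) 1 0 = (1 : M3) 1 0 := by rw [g.h]
      have hcol1 : (g.m * st g.m) 2 0 = (1 : M3) 2 0 := by rw [g.h]
      rw [Matrix.mul_apply, Fin.sum_univ_three] at hcol0 hcol1
      simp only [st_apply, h3, h4, map_zero, mul_zero, add_zero] at hcol0 hcol1
      have e0 : (1 : M3) 1 0 = 0 := rfl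
      have e1 : (1 : M3) 2 0 = 0 := rfl
      rw [e0] at hcol0
      rw [e1] at hcol1
      have hne : F16.cj (g.m 0 0) ≠ 0 := by
        intro h5
        rw [h5, mul_zero] at hrow
        exact absurd hrow (by decide)
      exact ⟨(mul_eq_zero.1 hcol0).resolve_right hne, (mul_eq_zero.1 hcol1).resolve_right hne,
        h3, h4⟩
    obtain ⟨x, y, hxy, he⟩ := corner _ _ h2 h1
    have hxy' : N (cb g.b x) + N (cb g.b y) = 1 := by
      rw [N_cb, N_cb, ← map_add, hxy, map_one]
    refine ⟨g * su (cb g.b x) (cb g.b y) hxy' * g⁻¹,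
      K.mul_mem (K.mul_mem hg (hK (su_mem _))) (K.inv_mem hg), ?_⟩
    rw [U.mul_m, U.mul_m, U.mul_b, U.inv_m]
    have hb : (su (cb g.b x) (cb g.b y) hxy').b = false := rfl
    rw [hb, Bool.xor_false, mc_mc, Bool.xor_self, mc_false, Matrix.mul_apply,
      Fin.sum_univ_three, Matrix.mul_apply, Matrix.mul_apply, Matrix.mul_apply,
      Fin.sum_univ_three, Fin.sum_univ_three, Fin.sum_univ_three]
    have s00 : mc g.b (su (cb g.b x) (cb g.b y) hxy').m 0 0 = 1 := map_one (cb g.b)
    have s01 : mc g.b (su (cb g.b x) (cb g.b y) hxy').m 0 1 = 0 := map_zero (cb g.b)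
    have s02 : mc g.b (su (cb g.b x) (cb g.b y) hxy').m 0 2 = 0 := map_zero (cb g.b)
    have s10 : mc g.b (su (cb g.b x) (cb g.b y) hxy').m 1 0 = 0 := map_zero (cb g.b)
    have s20 : mc g.b (su (cb g.b x) (cb g.b y) hxy').m 2 0 = 0 := map_zero (cb g.b)
    have s11 : mc g.b (su (cb g.b x) (cb g.b y) hxy').m 1 1 = x := cb_inv _ _
    have s12 : mc g.b (su (cb g.b x) (cb g.b y) hxy').m 1 2 = y := cb_inv _ _
    have s21 : mc g.b (su (cb g.b x) (cb g.b y) hxy').m 2 1 = F16.cj y := by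
      change cb g.b (F16.cj (cb g.b y)) = _
      rw [cb_cj, cb_inv]
    have s22 : mc g.b (su (cb g.b x) (cb g.b y) hxy').m 2 2 = F16.cj x := by
      change cb g.b (F16.cj (cb g.b x)) = _
      rw [cb_cj, cb_inv]
    rw [s00, s01, s02, s10, s20, s11, s12, s21, s22]
    simp only [st_apply]
    unfold N at he
    have h2' : ∀ z : F16, z + z = 0 := F16.add_self
    have t1 := h2' (g.m 0 1 * F16.cj (g.m 0 1))
    have t2 := h2' (g.m 0 2 * F16.cj (g.m 0 2))
    linear_combination he + hrow - t1 - t2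
end Vale.Agent.P183.H43
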